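import Mathlib

/-! Isometries of the sphere of an l1-sum with a line. -/

namespace Vale.Agent.P084h4

open Metric

variable {Z Y : Type*} [NormedAddCommGroup Z] [NormedSpace ℝ Z] [NormedAddCommGroup Y] [NormedSpace ℝ Y]

theorem ray {a b : Z} (hb : ‖b‖ ≤ 1) (h : a ≠ b) : ∃ t : ℝ, 1 ≤ t ∧ ‖a + t • (b - a)‖ = 1 := by
  have d : 0 < ‖b - a‖ := norm_pos_iff.2 (sub_ne_zero.2 h.symm)
  have c : Continuous fun t : ℝ => ‖a + t • (b - a)‖ := by fun_prop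
  have t1 : 1 ≤ 1 + (1 + ‖a‖) / ‖b - a‖ := le_add_of_nonneg_right (by positivity)
  obtain ⟨t, ht, e⟩ := intermediate_value_Icc t1 c.continuousOn (a := 1) (show (1 : ℝ) ∈ _ from
    ⟨by simpa using hb, by
      have := norm_sub_le (a + (1 + (1 + ‖a‖) / ‖b - a‖) • (b - a)) a
      rw [add_sub_cancel_left, norm_smul, Real.norm_of_nonneg (by positivity), add_mul,
        div_mul_cancel₀ _ d.ne'] at this
      show 1 ≤ ‖_‖
      linarith⟩)
  exact ⟨t, ht.1, e⟩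

theorem ray_dist {a b : Z} {t : ℝ} (ht : 1 ≤ t) :
    ‖a + t • (b - a) - a‖ = t * ‖b - a‖ ∧ ‖a + t • (b - a) - b‖ = (t - 1) * ‖b - a‖ := by
  refine ⟨by rw [add_sub_cancel_left, norm_smul, Real.norm_of_nonneg (by linarith)], ?_⟩
  rw [show a + t • (b - a) - b = (t - 1) • (b - a) by module, norm_smul,
    Real.norm_of_nonneg (by linarith)]

theorem vai {H : Type*} [MetricSpace H] (ψ h₀ : H ≃ᵢ H) (p : H) (hψ : ∀ x, dist (ψ x) x = 2 * dist x p)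
    (hb : ∀ x y : H, dist x y ≤ 1) : h₀ p = p := by
  have k : ∀ n : ℕ, ∃ h : H ≃ᵢ H, dist (h p) p = 2 ^ n * dist (h₀ p) p := fun n => by
    induction n with
    | zero => exact ⟨h₀, by simp⟩
    | succ n ih =>
      obtain ⟨h, e⟩ := ih
      refine ⟨(h.trans ψ).trans h.symm, ?_⟩
      rw [← h.dist_eq]
      simp only [IsometryEquiv.trans_apply, IsometryEquiv.apply_symm_apply]
      rw [hψ, e]
      ring
  by_contra c
  have d := dist_pos.2 c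
  obtain ⟨n, hn⟩ := pow_unbounded_of_one_lt (1 / dist (h₀ p) p) (one_lt_two (α := ℝ))
  obtain ⟨h, e⟩ := k n
  rw [div_lt_iff₀ d] at hn
  linarith [hb (h p) p]

structure Iso (P : Z → ℝ → Y) : Prop where
  one : ∀ w s, ‖w‖ + |s| = 1 → ‖P w s‖ = 1
  d : ∀ w s w' s', ‖w‖ + |s| = 1 → ‖w'‖ + |s'| = 1 → ‖P w s - P w' s'‖ = ‖w - w'‖ + |s - s'|
  odd : ∀ w s, ‖w‖ + |s| = 1 → P (-w) (-s) = -P w s
  sur : ∀ b, ‖b‖ = 1 → ∃ w s, ‖w‖ + |s| = 1 ∧ P w s = b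

variable {P : Z → ℝ → Y}

theorem Iso.e (h : Iso P) {w : Z} {s : ℝ} (hw : ‖w‖ + |s| = 1) : ‖P w s - P 0 1‖ = ‖w‖ + 1 - s := by
  rw [h.d _ _ _ _ hw (by simp), sub_zero, abs_sub_comm,
    abs_of_nonneg (by linarith [le_abs_self s, norm_nonneg w]), add_sub_assoc]

theorem Iso.seg (h : Iso P) {z : Z} (hz : ‖z‖ = 1) {l : ℝ} (l0 : 0 ≤ l) (l1 : l ≤ 1) :
    ∃ w, ‖w‖ = l ∧ ‖z - w‖ = 1 - l ∧ P w (1 - l) = l • P z 0 + (1 - l) • P 0 1 := by
  have z0 : ‖z‖ + |(0 : ℝ)| = 1 := by simpa using hz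
  have n1 := h.one _ _ z0
  have n2 := h.one 0 1 (by simp)
  have n3 : ‖P z 0 + P 0 1‖ = 2 := by
    have := h.d z 0 (-0) (-1) z0 (by simp)
    rw [h.odd 0 1 (by simp), sub_neg_eq_add] at this
    rw [this]; simp [hz]; norm_num
  have n4 : ‖P z 0 - P 0 1‖ = 2 := by rw [h.e z0, hz]; norm_num
  have up : ∀ m : ℝ, 0 ≤ m → m ≤ 1 → ‖m • P z 0 + (1 - m) • P 0 1‖ ≤ 1 := fun m m0 m1 =>
    (norm_add_le _ _).trans (by
      rw [norm_smul, norm_smul, n1, n2, Real.norm_of_nonneg m0, Real.norm_of_nonneg (by linarith)]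
      linarith)
  obtain ⟨w, s, hw, e⟩ := h.sur (l • P z 0 + (1 - l) • P 0 1) (le_antisymm (up l l0 l1) (by
    have := norm_add_le (l • P z 0 + (1 - l) • P 0 1) ((1 - l) • P z 0 + (1 - (1 - l)) • P 0 1)
    rw [show l • P z 0 + (1 - l) • P 0 1 + ((1 - l) • P z 0 + (1 - (1 - l)) • P 0 1) =
      P z 0 + P 0 1 by module, n3] at this
    linarith [up (1 - l) (by linarith) (by linarith)]))
  have a1 := h.e hw
  have a2 := h.d _ _ _ _ hw z0
  rw [e, show l • P z 0 + (1 - l) • P 0 1 - P 0 1 = l • (P z 0 - P 0 1) by module, norm_smul, n4,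
    Real.norm_of_nonneg l0] at a1
  rw [e, show l • P z 0 + (1 - l) • P 0 1 - P z 0 = (-(1 - l)) • (P z 0 - P 0 1) by module, norm_smul,
    n4, norm_neg, Real.norm_of_nonneg (by linarith), sub_zero, norm_sub_rev] at a2
  have a3 := norm_nonneg (z - w)
  have s1 : s = 1 - l := by
    rcases abs_cases s with ⟨c, _⟩ | ⟨c, _⟩ <;> rw [c] at hw a2 <;> linarith
  subst s1
  rw [abs_of_nonneg (by linarith)] at hw a2
  exact ⟨w, by linarith, by linarith, e⟩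

theorem Iso.half (h : Iso P) {z q : Z} (hz : ‖z‖ = 1) (q1 : ‖q‖ = 1 / 2) (q2 : ‖z - q‖ = 1 / 2)
    (q3 : P q (1 / 2) = (1 / 2 : ℝ) • P z 0 + (1 / 2 : ℝ) • P 0 1) : q = (1 / 2 : ℝ) • z := by
  have z0 : ‖z‖ + |(0 : ℝ)| = 1 := by simpa using hz
  have hf : ∀ w : Z, ‖w‖ = 1 / 2 → ‖w‖ + |(1 / 2 : ℝ)| = 1 := fun w e => by
    rw [e, abs_of_pos (by norm_num)]; norm_num
  have lv : ∀ b, ‖b‖ = 1 → ‖b - P 0 1‖ = 1 → ∃ w, ‖w‖ = 1 / 2 ∧ P w (1 / 2) = b := fun b b1 b2 => by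
    obtain ⟨w, s, hw, rfl⟩ := h.sur b b1
    rw [h.e hw] at b2
    have s0 : 0 ≤ s := by linarith [norm_nonneg w]
    rw [abs_of_nonneg s0] at hw
    obtain rfl : s = 1 / 2 := by linarith
    exact ⟨w, by linarith, rfl⟩
  have dd : ∀ w w' : Z, ‖w‖ = 1 / 2 → ‖w'‖ = 1 / 2 → ‖P w (1 / 2) - P w' (1 / 2)‖ = ‖w - w'‖ :=
    fun w w' a b => by rw [h.d _ _ _ _ (hf w a) (hf w' b)]; simp
  have dz : ∀ w z : Z, ‖w‖ = 1 / 2 → ‖z‖ = 1 → ‖P w (1 / 2) - P z 0‖ = ‖w - z‖ + 1 / 2 :=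
    fun w z a b => by rw [h.d _ _ _ _ (hf w a) (by simpa using b), sub_zero, abs_of_pos (by norm_num)]
  have de : ∀ w : Z, ‖w‖ = 1 / 2 → ‖P 0 1 - P w (1 / 2)‖ = 1 := fun w a => by
    rw [norm_sub_rev, h.e (hf w a), a]; norm_num
  have R : ∀ w : Z, ‖w‖ = 1 / 2 → P (-w) (1 / 2) = P 0 1 - P w (1 / 2) := fun w a => by
    obtain ⟨w', b, e⟩ := lv _ (de w a) (by rw [sub_sub_cancel_left, norm_neg, h.one _ _ (hf w a)])
    have := h.d w' (1 / 2) (-w) (-(1 / 2)) (hf _ b) (by simpa using hf w a)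
    rw [h.odd _ _ (hf w a), e, sub_neg_eq_add, sub_add_cancel, h.one 0 1 (by simp)] at this
    norm_num at this
    rw [← e, eq_neg_of_add_eq_zero_left this]
  have ex : ∀ w : {w : Z // ‖w‖ = 1 / 2 ∧ ‖z - w‖ = 1 / 2}, ∃ v : {w : Z // ‖w‖ = 1 / 2 ∧ ‖z - w‖ = 1 / 2},
      P v (1 / 2) = P 0 1 + P z 0 - P w (1 / 2) := by
    rintro ⟨w, a, b⟩
    have o := h.odd z 0 z0
    rw [neg_zero] at o
    obtain ⟨v, c, e⟩ := lv (P 0 1 + P z 0 - P w (1 / 2)) (by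
      have := dz (-w) (-z) (by simpa using a) (by simpa using hz)
      rw [R w a, o, neg_sub_neg, b, sub_neg_eq_add, sub_add_eq_add_sub] at this
      rw [this]; norm_num) (by
      rw [show P 0 1 + P z 0 - P w (1 / 2) - P 0 1 = -(P w (1 / 2) - P z 0) by abel, norm_neg,
        dz w z a hz, norm_sub_rev, b]; norm_num)
    refine ⟨⟨v, c, ?_⟩, e⟩
    have := dz v z c hz
    rw [e, show P 0 1 + P z 0 - P w (1 / 2) - P z 0 = P 0 1 - P w (1 / 2) by abel, de w a,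
      norm_sub_rev] at this
    linarith
  choose k hk using ex
  have ki : ∀ a b, dist (k a) (k b) = dist a b := fun a b => by
    rw [Subtype.dist_eq, Subtype.dist_eq, dist_eq_norm, dist_eq_norm, ← dd _ _ (k a).2.1 (k b).2.1,
      ← dd _ _ a.2.1 b.2.1, hk, hk, sub_sub_sub_cancel_left, norm_sub_rev]
  have kk : Function.Involutive k := fun a => Subtype.ext (sub_eq_zero.1 (norm_eq_zero.1 (by
    rw [← dd _ _ (k (k a)).2.1 a.2.1, hk, hk]; simp)))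
  let r : {w : Z // ‖w‖ = 1 / 2 ∧ ‖z - w‖ = 1 / 2} → {w : Z // ‖w‖ = 1 / 2 ∧ ‖z - w‖ = 1 / 2} :=
    fun w => ⟨z - w, w.2.2, by rw [sub_sub_cancel]; exact w.2.1⟩
  have rr : Function.Involutive r := fun a => Subtype.ext (sub_sub_cancel _ _)
  have := vai ⟨kk.toPerm, Isometry.of_dist_eq ki⟩ ⟨rr.toPerm, Isometry.of_dist_eq fun a b => by
      rw [Subtype.dist_eq, Subtype.dist_eq]; exact dist_sub_left _ _ _⟩ ⟨q, q1, q2⟩
    (fun x => by
      change dist (k x) x = _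
      rw [Subtype.dist_eq, Subtype.dist_eq, dist_eq_norm, dist_eq_norm, ← dd _ _ (k x).2.1 x.2.1,
        ← dd _ _ x.2.1 q1, hk, q3, show P 0 1 + P z 0 - P x (1 / 2) - P x (1 / 2) =
          (-2 : ℝ) • (P x (1 / 2) - ((1 / 2 : ℝ) • P z 0 + (1 / 2 : ℝ) • P 0 1)) by module, norm_smul]
      norm_num)
    fun x y => by
      rw [Subtype.dist_eq, dist_eq_norm]
      exact (norm_sub_le _ _).trans (by rw [x.2.1, y.2.1]; norm_num)
  have e : z - q = q := congrArg Subtype.val this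
  rw [sub_eq_iff_eq_add.1 e]
  module

end Vale.Agent.P084h4
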