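import Vale.Agent.P084h4.Two
import Vale.Agent.Results.P084.AllOdd

/-! The Mazur-Ulam property of l1-sums with a line. -/

namespace Vale.Agent.P084h4

open Metric

variable {Z Y : Type*} [NormedAddCommGroup Z] [NormedSpace ℝ Z] [NormedAddCommGroup Y] [NormedSpace ℝ Y]
  {P : Z → ℝ → Y}

theorem Iso.rep (h : Iso P) {u : Z} (hu : ‖u‖ = 1) {w : Z} {s : ℝ} (hw : ‖w‖ + |s| = 1) :
    ∃ z, ‖z‖ = 1 ∧ w = ‖w‖ • z ∧ P w s = ‖w‖ • P z 0 + s • P 0 1 := by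
  obtain ⟨z, z1, z2⟩ : ∃ z, ‖z‖ = 1 ∧ w = ‖w‖ • z := by
    by_cases c : w = 0
    · exact ⟨u, hu, by simp [c]⟩
    · exact ⟨‖w‖⁻¹ • w, norm_smul_inv_norm (𝕜 := ℝ) c, (smul_inv_smul₀ (norm_ne_zero_iff.2 c) w).symm⟩
  have l1 : ‖w‖ ≤ 1 := by linarith [abs_nonneg s]
  refine ⟨z, z1, z2, ?_⟩
  rcases abs_cases s with ⟨c, _⟩ | ⟨c, _⟩
  · have := h.aff z1 (norm_nonneg w) l1
    rwa [← z2, show 1 - ‖w‖ = s by linarith] at this
  · have a := h.aff (z := -z) (by simpa using z1) (norm_nonneg w) l1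
    have o := h.odd z 0 (by simpa using z1)
    rw [neg_zero] at o
    rw [smul_neg, ← z2, show 1 - ‖w‖ = -s by linarith, h.odd w s hw, o] at a
    rw [neg_eq_iff_eq_neg.1 a]
    module

theorem Iso.low (h : Iso P) {z z' : Z} (hz : ‖z‖ = 1) (hz' : ‖z'‖ = 1) {a b c : ℝ} (a0 : 0 ≤ a)
    (a1 : a ≤ 1) (b0 : 0 ≤ b) (b1 : b ≤ 1) (c0 : 0 ≤ c) (c1 : c ≤ 2 - a - b) :
    ‖a • z - b • z'‖ + c ≤ ‖a • P z 0 - b • P z' 0 + c • P 0 1‖ := by
  have o := h.odd z' 0 (by simpa using hz')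
  rw [neg_zero] at o
  have n : ∀ (a : ℝ) (z : Z), ‖z‖ = 1 → 0 ≤ a → a ≤ 1 → ‖a • z‖ + |1 - a| = 1 := fun a z u a0 a1 => by
    rw [norm_smul, u, Real.norm_of_nonneg a0, abs_of_nonneg (by linarith)]; ring
  have nz : ‖-z'‖ = 1 := by simpa using hz'
  have k := h.d _ _ (-(b • -z')) (-(1 - b)) (n a z hz a0 a1) (by
    rw [norm_neg, abs_neg]; exact n b _ nz b0 b1)
  rw [h.odd _ _ (n b _ nz b0 b1), h.aff hz a0 a1, h.aff nz b0 b1, o, smul_neg b z', neg_neg,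
    abs_of_nonneg (by linarith), show a • P z 0 + (1 - a) • P 0 1 - -(b • -P z' 0 + (1 - b) • P 0 1) =
      a • P z 0 - b • P z' 0 + c • P 0 1 + (2 - a - b - c) • P 0 1 by module] at k
  have := norm_add_le (a • P z 0 - b • P z' 0 + c • P 0 1) ((2 - a - b - c) • P 0 1)
  rw [k, norm_smul, h.one 0 1 (by simp), Real.norm_of_nonneg (by linarith)] at this
  linarith

theorem Iso.ge (h : Iso P) {u : Z} (hu : ‖u‖ = 1) {w w' : Z} {s s' l : ℝ} (hw : ‖w‖ + |s| = 1)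
    (hw' : ‖w'‖ + |s'| = 1) (l0 : 0 ≤ l) (l1 : l ≤ 1) :
    ‖w - l • w'‖ + |s - l * s'| ≤ ‖P w s - l • P w' s'‖ := by
  obtain ⟨z, z1, z2, z3⟩ := h.rep hu hw
  obtain ⟨y, y1, y2, y3⟩ := h.rep hu hw'
  have a0 := norm_nonneg w
  have b0 := norm_nonneg w'
  generalize ‖w‖ = a at *
  generalize ‖w'‖ = b at *
  have a1 : a ≤ 1 := by linarith [abs_nonneg s]
  have b1 : l * b ≤ 1 := mul_le_one₀ l1 b0 (by linarith [abs_nonneg s'])
  have c1 : |s - l * s'| ≤ 2 - a - l * b := by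
    refine (abs_sub _ _).trans ?_
    rw [abs_mul, abs_of_nonneg l0, show |s'| = 1 - b by linarith]
    nlinarith
  rw [z3, y3, z2, y2, smul_smul]
  rcases abs_cases (s - l * s') with ⟨c, c0⟩ | ⟨c, c0⟩
  · rw [c] at c1 ⊢
    refine (h.low z1 y1 a0 a1 (by positivity) b1 c0 c1).trans (le_of_eq (congrArg _ ?_))
    module
  · rw [c] at c1 ⊢
    rw [norm_sub_rev, norm_sub_rev (_ + _)]
    refine (h.low y1 z1 (by positivity) b1 a0 a1 (by linarith) (by linarith)).trans (le_of_eq (congrArg _ ?_))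
    module

theorem sumOne [Nontrivial Z] (f : sphere (0 : WithLp 1 (Z × ℝ)) 1 → sphere (0 : Y) 1) (hf : Isometry f)
    (hs : Function.Surjective f) :
    ∃ T : WithLp 1 (Z × ℝ) ≃ₗᵢ[ℝ] Y, ∀ x : sphere (0 : WithLp 1 (Z × ℝ)) 1, T x = f x := by
  classical
  have nn : ∀ x : WithLp 1 (Z × ℝ), ‖x‖ = ‖x.fst‖ + |x.snd| := fun x => by
    rw [WithLp.prod_norm_eq_of_L1, Real.norm_eq_abs]
  let j : ∀ (w : Z) (s : ℝ), ‖w‖ + |s| = 1 → sphere (0 : WithLp 1 (Z × ℝ)) 1 := fun w s c =>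
    ⟨WithLp.toLp 1 (w, s), mem_sphere_zero_iff_norm.2 ((nn _).trans c)⟩
  let P : Z → ℝ → Y := fun w s => if c : ‖w‖ + |s| = 1 then f (j w s c) else 0
  have hP : ∀ w s c, P w s = f (j w s c) := fun w s c => dif_pos c
  have on : ∀ x : sphere (0 : WithLp 1 (Z × ℝ)) 1, ‖x.1.fst‖ + |x.1.snd| = 1 := fun x =>
    (nn _).symm.trans (norm_eq_of_mem_sphere x)
  have hx : ∀ x : sphere (0 : WithLp 1 (Z × ℝ)) 1, P x.1.fst x.1.snd = f x := fun x => hP _ _ (on x)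
  have h : Iso P := ⟨fun w s c => by rw [hP w s c]; exact norm_eq_of_mem_sphere _,
    fun w s w' s' c c' => by
      have := hf.dist_eq (j w s c) (j w' s' c')
      rw [Subtype.dist_eq, Subtype.dist_eq, dist_eq_norm, dist_eq_norm, nn] at this
      rw [hP w s c, hP w' s' c', this]
      rfl,
    fun w s c => by
      rw [hP w s c, hP (-w) (-s) (by simpa using c), ← coe_neg_sphere,
        ← Results.P084.AllOdd.result f hf hs]
      rfl,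
    fun b hb => by
      obtain ⟨x, e⟩ := hs ⟨b, mem_sphere_zero_iff_norm.2 hb⟩
      exact ⟨_, _, on x, by rw [hx, e]⟩⟩
  obtain ⟨u, hu⟩ := exists_norm_eq Z (zero_le_one (α := ℝ))
  refine fw f hf hs fun x y l l0 l1 => ?_
  rw [nn, ← hx, ← hx]
  exact h.ge hu (on x) (on y) l0 l1

end Vale.Agent.P084h4
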