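import Vale.Agent.P084h4.One

/-! Affinity on the rays of the double cone, and the extension lemma. -/

namespace Vale.Agent.P084h4

open Metric Filter Topology

variable {Z Y : Type*} [NormedAddCommGroup Z] [NormedSpace ℝ Z] [NormedAddCommGroup Y] [NormedSpace ℝ Y]
  {P : Z → ℝ → Y}

theorem smooth {v z : Z} (hz : ‖z‖ = 1) (h : ∀ (u : Z) (φ : StrongDual ℝ Z), ‖u‖ = 1 → ‖φ‖ = 1 → φ u = 1 →
    ∀ k : ℕ, (1 / 2) ^ k * φ v ≤ ‖u + (1 / 2 : ℝ) ^ k • z‖ + ‖u - (1 / 2 : ℝ) ^ k • z‖ - 2) : v = 0 := by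
  by_contra v0
  have d := norm_pos_iff.2 v0
  have L : LipschitzWith 1 fun t : ℝ => ‖v + t • z‖ := LipschitzWith.of_dist_le_mul fun a b => by
    refine (dist_norm_norm_le _ _).trans ?_
    rw [add_sub_add_left_eq_sub, ← sub_smul, norm_smul, hz, dist_eq_norm]
    simp
  obtain ⟨t, t1, t2⟩ := (MeasureTheory.Measure.dense_of_ae (L.ae_differentiableAt_of_real
    (μ := MeasureTheory.volume))).exists_mem_open isOpen_ball ⟨0, mem_ball_self (show 0 < ‖v‖ / 2 by positivity)⟩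
  rw [mem_ball_zero_iff, Real.norm_eq_abs] at t2
  have n0 : ‖v‖ / 2 < ‖v + t • z‖ := by
    have := norm_sub_le (v + t • z) (t • z)
    rw [add_sub_cancel_right, norm_smul, hz, Real.norm_eq_abs] at this
    linarith
  obtain ⟨n, hn⟩ : ∃ n, n = ‖v + t • z‖ := ⟨_, rfl⟩
  have n1 : 0 < n := by rw [hn]; linarith
  obtain ⟨φ, p1, p2⟩ := exists_dual_vector ℝ (v + t • z) (by rw [← hn]; exact n1.ne')
  have p3 : φ v + t * φ z = n := by simpa [← hn] using p2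
  have p4 : |t * φ z| ≤ |t| := by
    rw [abs_mul]
    exact mul_le_of_le_one_right (abs_nonneg _) (by simpa [p1, hz] using φ.le_opNorm z)
  have p5 : 0 < φ v := by linarith [le_abs_self (t * φ z)]
  have o := (hasDerivAt_iff_isLittleO_nhds_zero.1 (DifferentiableAt.hasDerivAt t1)).def
    (show 0 < φ v / 4 by positivity)
  have q : Tendsto (fun k : ℕ => (1 / 2 : ℝ) ^ k * n) atTop (𝓝 0) := by
    simpa using (tendsto_pow_atTop_nhds_zero_of_lt_one (r := (1 / 2 : ℝ)) (by norm_num) (by norm_num)).mul_const n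
  have q' : Tendsto (fun k : ℕ => -((1 / 2 : ℝ) ^ k * n)) atTop (𝓝 0) := by simpa using q.neg
  obtain ⟨k, k1, k2⟩ := ((q.eventually o).and (q'.eventually o)).exists
  have k3 := h (n⁻¹ • (v + t • z)) φ (by
    rw [norm_smul, ← hn, Real.norm_of_nonneg (by positivity), inv_mul_cancel₀ n1.ne']) p1 (by
    rw [map_smul, p2, ← hn]; exact inv_mul_cancel₀ n1.ne') k
  have e0 : (0 : ℝ) < (1 / 2) ^ k := by positivity
  generalize (1 / 2 : ℝ) ^ k = e at *
  have e1 : n⁻¹ • (v + t • z) + e • z = n⁻¹ • (v + (t + e * n) • z) := by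
    match_scalars <;> field_simp
  have e2 : n⁻¹ • (v + t • z) - e • z = n⁻¹ • (v + (t + -(e * n)) • z) := by
    match_scalars <;> field_simp
    ring
  rw [e1, e2, norm_smul, norm_smul, Real.norm_of_nonneg (by positivity), ← mul_add] at k3
  simp only [Real.norm_eq_abs, abs_neg, abs_of_pos (mul_pos e0 n1), smul_eq_mul, ← hn] at k1 k2
  have k4 := (abs_le.1 k1).2
  have k5 := (abs_le.1 k2).2
  have k6 : n * (e * φ v) ≤ ‖v + (t + e * n) • z‖ + ‖v + (t + -(e * n)) • z‖ - 2 * n := by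
    have := mul_le_mul_of_nonneg_left k3 n1.le
    rwa [mul_sub, ← mul_assoc n n⁻¹, mul_inv_cancel₀ n1.ne', one_mul, mul_comm n 2] at this
  have : 0 < n * (e * φ v) := by positivity
  nlinarith

theorem Iso.aff (h : Iso P) {z : Z} (hz : ‖z‖ = 1) {l : ℝ} (l0 : 0 ≤ l) (l1 : l ≤ 1) :
    P (l • z) (1 - l) = l • P z 0 + (1 - l) • P 0 1 := by
  choose! G G1 G2 G3 using fun (l : ℝ) (z : Z) (k : ‖z‖ = 1 ∧ 0 ≤ l ∧ l ≤ 1) => h.seg k.1 k.2.1 k.2.2
  have on : ∀ l z, ‖z‖ = 1 ∧ 0 ≤ l ∧ l ≤ 1 → ‖G l z‖ + |1 - l| = 1 := fun l z k => by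
    rw [G1 l z k, abs_of_nonneg (by linarith [k.2.2])]; ring
  have S : ∀ a b z z', ‖z‖ = 1 → ‖z'‖ = 1 → 0 ≤ b → b ≤ a → a ≤ 1 →
      ‖G a z - G b z'‖ + (a - b) = ‖a • P z 0 - b • P z' 0 - (a - b) • P 0 1‖ := fun a b z z' u u' b0 c a1 => by
    have := h.d _ _ _ _ (on a z ⟨u, b0.trans c, a1⟩) (on b z' ⟨u', b0, c.trans a1⟩)
    rw [G3 a z ⟨u, b0.trans c, a1⟩, G3 b z' ⟨u', b0, c.trans a1⟩, abs_of_nonpos (by linarith),
      show a • P z 0 + (1 - a) • P 0 1 - (b • P z' 0 + (1 - b) • P 0 1) =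
        a • P z 0 - b • P z' 0 - (a - b) • P 0 1 by module] at this
    linarith
  have S2 : ∀ θ b z z', ‖z‖ = 1 → ‖z'‖ = 1 → 0 ≤ b → b ≤ 1 → 0 ≤ θ → θ ≤ 1 →
      ‖G θ z - G (θ * b) z'‖ = θ * ‖z - G b z'‖ := fun θ b z z' u u' b0 b1 t0 t1 => by
    have a1 := S θ (θ * b) z z' u u' (by positivity) (mul_le_of_le_one_right t0 b1) t1
    have a2 := S 1 b z z' u u' b0 b1 le_rfl
    have a3 : G 1 z = z := by
      have := G2 1 z ⟨u, zero_le_one, le_rfl⟩
      rw [sub_self, norm_eq_zero, sub_eq_zero] at this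
      exact this.symm
    rw [show θ • P z 0 - (θ * b) • P z' 0 - (θ - θ * b) • P 0 1 =
      θ • ((1 : ℝ) • P z 0 - b • P z' 0 - (1 - b) • P 0 1) by module, norm_smul, ← a2, a3,
      Real.norm_of_nonneg t0] at a1
    linarith
  have H2 : ∀ z, ‖z‖ = 1 → G (1 / 2) z = (1 / 2 : ℝ) • z := fun z u =>
    h.half u (G1 _ _ ⟨u, by norm_num, by norm_num⟩) ((G2 _ _ ⟨u, by norm_num, by norm_num⟩).trans (by norm_num))
      (by simpa only [show (1 : ℝ) - 1 / 2 = 1 / 2 by norm_num] using G3 (1 / 2) _ ⟨u, by norm_num, by norm_num⟩)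
  have S4 : ∀ b z', ‖z'‖ = 1 → 0 ≤ b → b ≤ 1 → G (1 / 2 * b) z' = (1 / 2 : ℝ) • G b z' := fun b z' u' b0 b1 => by
    have : (2 : ℝ) • G (1 / 2 * b) z' = G b z' := by
      by_contra c
      obtain ⟨t, t1, t2⟩ := ray ((G1 b z' ⟨u', b0, b1⟩).trans_le b1) c
      obtain ⟨d1, d2⟩ := ray_dist (a := (2 : ℝ) • G (1 / 2 * b) z') (b := G b z') t1
      have a1 := S2 (1 / 2) b _ z' t2 u' b0 b1 (by norm_num) (by norm_num)
      rw [H2 _ t2, d2] at a1
      generalize (2 : ℝ) • G (1 / 2 * b) z' + t • (G b z' - (2 : ℝ) • G (1 / 2 * b) z') = w at *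
      rw [show w - (2 : ℝ) • G (1 / 2 * b) z' = (2 : ℝ) • ((1 / 2 : ℝ) • w - G (1 / 2 * b) z') by module,
        norm_smul, a1, Real.norm_of_nonneg (by norm_num)] at d1
      have := norm_pos_iff.2 (sub_ne_zero.2 (Ne.symm c))
      linarith
    rw [← this]
    module
  have S5 : ∀ (k : ℕ) b z', ‖z'‖ = 1 → 0 ≤ b → b ≤ 1 → G (b * (1 / 2) ^ k) z' = (1 / 2 : ℝ) ^ k • G b z' :=
    fun k b z' u' b0 b1 => by
      induction k with
      | zero => simp
      | succ k ih =>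
        rw [show b * (1 / 2) ^ (k + 1) = 1 / 2 * (b * (1 / 2) ^ k) by ring, S4 _ _ u' (by positivity)
          (mul_le_one₀ b1 (by positivity) (pow_le_one₀ (by norm_num) (by norm_num))), ih, smul_smul,
          pow_succ']
  have G0 : ∀ z, ‖z‖ = 1 → G 1 z = z := fun z u => by
    have := G2 1 z ⟨u, zero_le_one, le_rfl⟩
    rw [sub_self, norm_eq_zero, sub_eq_zero] at this
    exact this.symm
  have od : G l (-z) = -G l z := by
    have nz : ‖-z‖ = 1 := by simpa using hz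
    have o := h.odd z 0 (by simpa using hz)
    have := h.d _ _ (-G l z) (-(1 - l)) (on l _ ⟨nz, l0, l1⟩) (by simpa [abs_sub_comm] using on l z ⟨hz, l0, l1⟩)
    rw [neg_zero] at o
    rw [h.odd _ _ (on l z ⟨hz, l0, l1⟩), G3 _ _ ⟨nz, l0, l1⟩, G3 _ _ ⟨hz, l0, l1⟩, o,
      show l • -P z 0 + (1 - l) • P 0 1 - -(l • P z 0 + (1 - l) • P 0 1) = (1 - l - -(1 - l)) • P 0 1 by module,
      norm_smul, h.one 0 1 (by simp), mul_one, Real.norm_eq_abs] at this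
    exact sub_eq_zero.1 (norm_eq_zero.1 (by linarith))
  have : l • z - G l z = 0 := smooth hz fun u φ u1 p1 p2 k => by
    have pl : ∀ x, φ x ≤ ‖x‖ := fun x => (le_abs_self _).trans (by simpa [p1] using φ.le_opNorm x)
    have e0 : (0 : ℝ) ≤ (1 / 2) ^ k := by positivity
    have e1 : (1 / 2 : ℝ) ^ k ≤ 1 := pow_le_one₀ (by norm_num) (by norm_num)
    have a1 := S2 l _ u z u1 hz e0 e1 l0 l1
    have a2 := S5 k 1 z hz zero_le_one le_rfl
    rw [one_mul, G0 z hz] at a2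
    rw [S5 k l z hz l0 l1, a2] at a1
    have a3 := pl (u - G l u)
    have a4 := pl (G l u - (1 / 2 : ℝ) ^ k • G l z)
    have a5 := pl (u + (1 / 2 : ℝ) ^ k • z)
    have a6 := pl (u - (1 / 2 : ℝ) ^ k • z)
    rw [G2 _ _ ⟨u1, l0, l1⟩] at a3
    rw [a1] at a4
    simp only [map_sub, map_add, map_smul, smul_eq_mul, p2] at a3 a4 a5 a6 ⊢
    have a7 := mul_le_mul_of_nonneg_left a5 l0
    have a8 := mul_nonneg (sub_nonneg.2 l1) (show 0 ≤ ‖u + (1 / 2 : ℝ) ^ k • z‖ + ‖u - (1 / 2 : ℝ) ^ k • z‖ - 2 by linarith)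
    nlinarith
  rw [sub_eq_zero.1 this, G3 _ _ ⟨hz, l0, l1⟩]

theorem fw {X : Type*} [NormedAddCommGroup X] [NormedSpace ℝ X] (f : sphere (0 : X) 1 → sphere (0 : Y) 1)
    (hf : Isometry f) (hs : Function.Surjective f)
    (h : ∀ (x y : sphere (0 : X) 1) (l : ℝ), 0 ≤ l → l ≤ 1 → ‖(x : X) - l • y‖ ≤ ‖(f x : Y) - l • f y‖) :
    ∃ T : X ≃ₗᵢ[ℝ] Y, ∀ x : sphere (0 : X) 1, T x = f x := by
  classical
  have n1 : ∀ x : sphere (0 : X) 1, ‖(x : X)‖ = 1 := fun z => norm_eq_of_mem_sphere z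
  have n2 : ∀ x : sphere (0 : Y) 1, ‖(x : Y)‖ = 1 := fun z => norm_eq_of_mem_sphere z
  have df : ∀ x y, ‖(f x : Y) - f y‖ = ‖(x : X) - y‖ := fun x y => by
    have := hf.dist_eq x y
    rwa [Subtype.dist_eq, Subtype.dist_eq, dist_eq_norm, dist_eq_norm] at this
  have eq : ∀ (x y : sphere (0 : X) 1) (l : ℝ), 0 ≤ l → l ≤ 1 → ‖(f x : Y) - l • f y‖ = ‖(x : X) - l • y‖ :=
    fun x y l l0 l1 => le_antisymm (by
      by_cases c : (f x : Y) = l • f y
      · rw [c, sub_self, norm_zero]; positivity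
      obtain ⟨t, t1, t2⟩ := ray (by rw [norm_smul, n2, mul_one, Real.norm_of_nonneg l0]; exact l1) c
      obtain ⟨d1, d2⟩ := ray_dist (a := (f x : Y)) (b := l • f y) t1
      obtain ⟨w, hw⟩ := hs ⟨_, mem_sphere_zero_iff_norm.2 t2⟩
      have hw' : (f w : Y) = f x + t • (l • (f y : Y) - f x) := congrArg Subtype.val hw
      rw [← hw'] at d1 d2
      have a1 := h w y l l0 l1
      have a2 := norm_sub_le_norm_sub_add_norm_sub (w : X) (l • y) x
      rw [df] at d1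
      rw [norm_sub_rev (l • (y : X))] at a2
      rw [norm_sub_rev (f x : Y)]
      linarith) (h x y l l0 l1)
  have pol : ∀ a : X, a ≠ 0 → ∃ x : sphere (0 : X) 1, a = ‖a‖ • (x : X) := fun a a0 =>
    ⟨⟨‖a‖⁻¹ • a, mem_sphere_zero_iff_norm.2 (norm_smul_inv_norm (𝕜 := ℝ) a0)⟩,
      (smul_inv_smul₀ (norm_ne_zero_iff.2 a0) a).symm⟩
  choose π hπ using pol
  let F : X → Y := fun a => if c : a = 0 then 0 else ‖a‖ • (f (π a c) : Y)
  have F0 : F 0 = 0 := dif_pos rfl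
  have F1 : ∀ (x : sphere (0 : X) 1) (r : ℝ), 0 ≤ r → F (r • (x : X)) = r • (f x : Y) := fun x r r0 => by
    rcases r0.eq_or_lt with rfl | r1
    · simp [F0]
    have e : ‖r • (x : X)‖ = r := by rw [norm_smul, n1, mul_one, Real.norm_of_nonneg r0]
    have c : r • (x : X) ≠ 0 := norm_ne_zero_iff.1 (by rw [e]; exact r1.ne')
    have := hπ _ c
    rw [e] at this
    rw [show F (r • (x : X)) = _ from dif_neg c, e, Subtype.ext (smul_right_injective X r1.ne' this).symm]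
  have F2 : ∀ a b, ‖b‖ ≤ ‖a‖ → ‖F a - F b‖ = ‖a - b‖ := fun a b l => by
    by_cases c : a = 0
    · rw [c, norm_zero, norm_le_zero_iff] at l
      simp [c, l]
    have a0 := norm_pos_iff.2 c
    obtain ⟨y, hy⟩ : ∃ y : sphere (0 : X) 1, b = ‖b‖ • (y : X) := by
      by_cases c' : b = 0
      · exact ⟨π a c, by simp [c']⟩
      · exact ⟨_, hπ b c'⟩
    have e := eq (π a c) y (‖b‖ / ‖a‖) (by positivity) ((div_le_one a0).2 l)
    have k : ‖a‖ * (‖b‖ / ‖a‖) = ‖b‖ := by field_simp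
    conv_lhs => rw [hπ a c, hy, F1 _ _ a0.le, F1 _ _ (norm_nonneg b), ← k, mul_smul, ← smul_sub, norm_smul, e]
    conv_rhs => rw [hπ a c, hy, ← k, mul_smul, ← smul_sub, norm_smul]
  have F3 : Isometry F := Isometry.of_dist_eq fun a b => by
    rw [dist_eq_norm, dist_eq_norm]
    rcases le_total ‖b‖ ‖a‖ with l | l
    · exact F2 a b l
    · rw [norm_sub_rev, F2 b a l, norm_sub_rev]
  have F4 : Function.Surjective F := fun b => by
    by_cases c : b = 0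
    · exact ⟨0, by rw [F0, c]⟩
    obtain ⟨x, hx⟩ := hs ⟨‖b‖⁻¹ • b, mem_sphere_zero_iff_norm.2 (norm_smul_inv_norm (𝕜 := ℝ) c)⟩
    exact ⟨‖b‖ • (x : X), by rw [F1 _ _ (norm_nonneg _), hx]; exact smul_inv_smul₀ (norm_ne_zero_iff.2 c) b⟩
  exact ⟨(⟨Equiv.ofBijective F ⟨F3.injective, F4⟩, F3⟩ : X ≃ᵢ Y).toRealLinearIsometryEquivOfMapZero F0,
    fun x => show F x = _ by simpa using F1 x 1 zero_le_one⟩

end Vale.Agent.P084h4
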